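import Mathlib

/-!
Measure-theoretic core of the counterexample: five disjoint copies of a probability space,
two families of contact triples sharing the first copy.
-/

open MeasureTheory Set
open scoped ENNReal

namespace Vale.Agent.P121

/-- The index triples that are orderings of `0,1,2` or of `0,3,4`. -/
def IsContact (i j k : Fin 5) : Prop :=
  ({i, j, k} : Finset (Fin 5)) = {0, 1, 2} ∨ ({i, j, k} : Finset (Fin 5)) = {0, 3, 4}

instance (i j k : Fin 5) : Decidable (IsContact i j k) := by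
  unfold IsContact; infer_instance

variable {X Ω : Type*} [MeasurableSpace X] [MeasurableSpace Ω]

/-- The common marginal. -/
noncomputable def mix (m : Measure Ω) (f : Fin 5 → Ω → X) : Measure X :=
  (6 : ℝ≥0∞)⁻¹ • (m.map (f 0) + m.map (f 0) + m.map (f 1) + m.map (f 2) + m.map (f 3) + m.map (f 4))

/-- The cyclically symmetric plan carried by the contact triples. -/
noncomputable def plan (m : Measure Ω) (f : Fin 5 → Ω → X) : Measure (X × X × X) :=
  (6 : ℝ≥0∞)⁻¹ • (m.map (fun w => (f 0 w, f 1 w, f 2 w)) + m.map (fun w => (f 1 w, f 2 w, f 0 w))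
    + m.map (fun w => (f 2 w, f 0 w, f 1 w)) + m.map (fun w => (f 0 w, f 3 w, f 4 w))
    + m.map (fun w => (f 3 w, f 4 w, f 0 w)) + m.map (fun w => (f 4 w, f 0 w, f 3 w)))

theorem six_inv_mul : (6 : ℝ≥0∞)⁻¹ * (1 + 1 + 1 + 1 + 1 + 1) = 1 := by
  have : (1 + 1 + 1 + 1 + 1 + 1 : ℝ≥0∞) = 6 := by norm_num
  rw [this]
  exact ENNReal.inv_mul_cancel (by norm_num) (by norm_num)

theorem mix_prob (m : Measure Ω) [IsProbabilityMeasure m] (f : Fin 5 → Ω → X)
    (hf : ∀ i, Measurable (f i)) : IsProbabilityMeasure (mix m f) := by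
  constructor
  simp only [mix, Measure.smul_apply, Measure.add_apply, smul_eq_mul,
    Measure.map_apply (hf _) MeasurableSet.univ, preimage_univ, measure_univ]
  exact six_inv_mul

theorem meas3 (f : Fin 5 → Ω → X) (hf : ∀ i, Measurable (f i)) (i j k : Fin 5) :
    Measurable (fun w => (f i w, f j w, f k w)) :=
  (hf i).prodMk ((hf j).prodMk (hf k))

theorem plan_prob (m : Measure Ω) [IsProbabilityMeasure m] (f : Fin 5 → Ω → X)
    (hf : ∀ i, Measurable (f i)) : IsProbabilityMeasure (plan m f) := by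
  constructor
  simp only [plan, Measure.smul_apply, Measure.add_apply, smul_eq_mul,
    Measure.map_apply (meas3 f hf _ _ _) MeasurableSet.univ, preimage_univ, measure_univ]
  exact six_inv_mul

theorem plan_fst (m : Measure Ω) (f : Fin 5 → Ω → X) (hf : ∀ i, Measurable (f i)) :
    (plan m f).map (fun p => p.1) = mix m f := by
  have h : Measurable (fun p : X × X × X => p.1) := measurable_fst
  simp only [plan, mix, Measure.map_smul, Measure.map_add _ _ h,
    Measure.map_map h (meas3 f hf _ _ _), Function.comp_def]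
  congr 1
  ac_rfl

theorem plan_snd (m : Measure Ω) (f : Fin 5 → Ω → X) (hf : ∀ i, Measurable (f i)) :
    (plan m f).map (fun p => p.2.1) = mix m f := by
  have h : Measurable (fun p : X × X × X => p.2.1) := measurable_snd.fst
  simp only [plan, mix, Measure.map_smul, Measure.map_add _ _ h,
    Measure.map_map h (meas3 f hf _ _ _), Function.comp_def]
  congr 1
  ac_rfl

theorem plan_thd (m : Measure Ω) (f : Fin 5 → Ω → X) (hf : ∀ i, Measurable (f i)) :
    (plan m f).map (fun p => p.2.2) = mix m f := by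
  have h : Measurable (fun p : X × X × X => p.2.2) := measurable_snd.snd
  simp only [plan, mix, Measure.map_smul, Measure.map_add _ _ h,
    Measure.map_map h (meas3 f hf _ _ _), Function.comp_def]
  congr 1
  ac_rfl

omit [MeasurableSpace X] [MeasurableSpace Ω] in
theorem preimage_image_ne {f : Fin 5 → Ω → X}
    (hd : ∀ i j w w', f i w = f j w' → i = j) {i j : Fin 5} (hij : i ≠ j) (Q : Set Ω) :
    f i ⁻¹' (f j '' Q) = ∅ := by
  ext w
  simp only [mem_preimage, mem_image, mem_empty_iff_false, iff_false]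
  rintro ⟨w', -, h⟩
  exact hij (hd _ _ _ _ h).symm

theorem mix_image (m : Measure Ω) {f : Fin 5 → Ω → X} (hf : ∀ i, MeasurableEmbedding (f i))
    (hd : ∀ i j w w', f i w = f j w' → i = j) {Q : Set Ω} (hQ : MeasurableSet Q) :
    mix m f (f 0 '' Q) = 6⁻¹ * (m Q + m Q) ∧ mix m f (f 1 '' Q) = 6⁻¹ * m Q ∧
      mix m f (f 2 '' Q) = 6⁻¹ * m Q := by
  have hm : ∀ j, MeasurableSet (f j '' Q) := fun j => (hf j).measurableSet_image.2 hQ
  have h1 : ∀ j, f j ⁻¹' (f j '' Q) = Q := fun j => preimage_image_eq _ (hf j).injective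
  refine ⟨?_, ?_, ?_⟩ <;>
  · simp only [mix, Measure.smul_apply, Measure.add_apply, smul_eq_mul,
      Measure.map_apply (hf _).measurable (hm _), h1]
    repeat rw [preimage_image_ne hd (by decide)]
    simp

theorem ae_mem_range (m : Measure Ω) {f : Fin 5 → Ω → X} (hf : ∀ i, MeasurableEmbedding (f i)) :
    ∀ᵐ x ∂(mix m f), ∃ i w, x = f i w := by
  have hs : MeasurableSet {x : X | ∃ i w, x = f i w} := by
    have : {x : X | ∃ i w, x = f i w} = ⋃ i, range (f i) := by
      ext x; simp [eq_comm]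
    rw [this]
    exact MeasurableSet.iUnion fun i => (hf i).measurableSet_range
  have h : ∀ j, ∀ᵐ x ∂(m.map (f j)), ∃ i w, x = f i w := fun j =>
    (ae_map_iff (hf j).measurable.aemeasurable hs).2 (Filter.Eventually.of_forall fun w => ⟨j, w, rfl⟩)
  unfold mix
  refine Measure.ae_smul_measure ?_ _
  simp only [ae_add_measure_iff]
  exact ⟨⟨⟨⟨⟨h 0, h 0⟩, h 1⟩, h 2⟩, h 3⟩, h 4⟩

theorem no_contact_map (m : Measure Ω) [IsProbabilityMeasure m] {f : Fin 5 → Ω → X}
    (hf : ∀ i, MeasurableEmbedding (f i)) (hd : ∀ i j w w', f i w = f j w' → i = j)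
    {T₂ T₃ : X → X} (h₂ : Measurable T₂) (h₃ : Measurable T₃)
    (e₂ : (mix m f).map T₂ = mix m f) (e₃ : (mix m f).map T₃ = mix m f)
    (hc : ∀ᵐ x ∂(mix m f), ∃ i j k w, x = f i w ∧ T₂ x = f j w ∧ T₃ x = f k w ∧ IsContact i j k) :
    False := by
  classical
  set A : Set Ω := (T₂ ∘ f 0) ⁻¹' (range (f 1) ∪ range (f 2)) with hA
  have hAm : MeasurableSet A :=
    (h₂.comp (hf 0).measurable) ((hf 1).measurableSet_range.union (hf 2).measurableSet_range)
  have mem_iff : ∀ (i j : Fin 5) (w : Ω) (Q : Set Ω), f i w ∈ f j '' Q ↔ i = j ∧ w ∈ Q := by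
    intro i j w Q
    constructor
    · rintro ⟨w', hw', h⟩
      obtain rfl := hd _ _ _ _ h
      exact ⟨rfl, (hf _).injective h ▸ hw'⟩
    · rintro ⟨rfl, h⟩
      exact ⟨w, h, rfl⟩
  have key : ∀ Q : Set Ω, MeasurableSet Q → m Q = m (Q ∩ A) + m (Q ∩ A) := by
    intro Q hQ
    have hm : ∀ j, MeasurableSet (f j '' Q) := fun j => (hf j).measurableSet_image.2 hQ
    have hm0 : MeasurableSet (f 0 '' (Q ∩ A)) := (hf 0).measurableSet_image.2 (hQ.inter hAm)
    have hae : ∀ᵐ x ∂(mix m f),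
        (T₂ ⁻¹' (f 1 '' Q)).indicator (1 : X → ℝ≥0∞) x + (T₃ ⁻¹' (f 1 '' Q)).indicator 1 x =
        (f 0 '' (Q ∩ A)).indicator 1 x + (f 2 '' Q).indicator 1 x := by
      filter_upwards [hc] with x ⟨i, j, k, w, hx, hy, hz, hijk⟩
      have hAw : i = 0 → (w ∈ A ↔ (j = 1 ∨ j = 2)) := by
        rintro rfl
        simp only [hA, mem_preimage, Function.comp, ← hx, hy, mem_union, ← image_univ, mem_iff,
          mem_univ, and_true]
      simp only [indicator, mem_preimage, hy, hz, Pi.one_apply]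
      simp only [hx, mem_iff, mem_inter_iff]
      by_cases hw : w ∈ Q
      · simp only [hw, and_true, true_and]
        by_cases hi : i = 0
        · simp only [hAw hi]
          subst hi
          revert hijk
          fin_cases j <;> fin_cases k <;> simp [IsContact] <;> decide
        · simp only [hi, false_and]
          revert hijk hi
          fin_cases i <;> fin_cases j <;> fin_cases k <;> simp [IsContact] <;> decide
      · simp [hw]
    have hint := lintegral_congr_ae hae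
    rw [lintegral_add_left (measurable_one.indicator (h₂ (hm 1))),
      lintegral_add_left (measurable_one.indicator hm0),
      lintegral_indicator_one (h₂ (hm 1)), lintegral_indicator_one (h₃ (hm 1)),
      lintegral_indicator_one hm0, lintegral_indicator_one (hm 2),
      ← Measure.map_apply h₂ (hm 1), ← Measure.map_apply h₃ (hm 1), e₂, e₃,
      (mix_image m hf hd hQ).2.1, (mix_image m hf hd hQ).2.2,
      (mix_image m hf hd (hQ.inter hAm)).1] at hint
    have h6 : (6 : ℝ≥0∞)⁻¹ * m Q ≠ ∞ := ENNReal.mul_ne_top (by simp) (measure_ne_top _ _)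
    have := (ENNReal.add_left_inj h6).1 hint
    exact (ENNReal.mul_right_inj (by simp) (by simp)).1 this
  have h1 := key A hAm
  have h2 := key univ MeasurableSet.univ
  rw [inter_self] at h1
  rw [univ_inter, measure_univ] at h2
  have h0 : m A = 0 := by
    have : m A + 0 = m A + m A := by simpa using h1
    exact ((ENNReal.add_right_inj (measure_ne_top _ _)).1 this).symm
  rw [h0] at h2
  simp at h2

theorem abstract_main (m : Measure Ω) [IsProbabilityMeasure m] {f : Fin 5 → Ω → X}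
    (hf : ∀ i, MeasurableEmbedding (f i)) (hd : ∀ i j w w', f i w = f j w' → i = j)
    (c : X → X → X → ℝ≥0∞) (hc : Measurable fun p : X × X × X => c p.1 p.2.1 p.2.2)
    (hcyc : ∀ x y z, c x y z = c y z x)
    (v : Fin 5 → Ω → ℝ≥0∞) (hv : ∀ i, Measurable (v i)) (hb : ∀ i w, v i w ≤ 2)
    (H1 : ∀ i j k w₁ w₂ w₃, v i w₁ + v j w₂ + v k w₃ ≤ c (f i w₁) (f j w₂) (f k w₃))
    (H2 : ∀ w, c (f 0 w) (f 1 w) (f 2 w) = v 0 w + v 1 w + v 2 w)
    (H2' : ∀ w, c (f 0 w) (f 3 w) (f 4 w) = v 0 w + v 3 w + v 4 w)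
    (H3 : ∀ i j k w₁ w₂ w₃, v i w₁ + v j w₂ + v k w₃ = c (f i w₁) (f j w₂) (f k w₃) →
      w₁ = w₂ ∧ w₁ = w₃ ∧ IsContact i j k) :
    ∫⁻ p, c p.1 p.2.1 p.2.2 ∂(plan m f) < ∞ ∧
    ∀ T₂ T₃ : X → X, Measurable T₂ → Measurable T₃ → (mix m f).map T₂ = mix m f →
      (mix m f).map T₃ = mix m f →
      ∫⁻ p, c p.1 p.2.1 p.2.2 ∂(plan m f) < ∫⁻ x, c x (T₂ x) (T₃ x) ∂(mix m f) := by
  classical
  have hfm : ∀ i, Measurable (f i) := fun i => (hf i).measurable
  have := mix_prob m f hfm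
  set U : X → ℝ≥0∞ := fun x => ∑ i, Function.extend (f i) (v i) (fun _ => 0) x with hU
  have hUm : Measurable U :=
    Finset.measurable_sum _ fun i _ => (hf i).measurable_extend (hv i) measurable_const
  have hUf : ∀ j w, U (f j w) = v j w := by
    intro j w
    simp only [hU]
    rw [Finset.sum_eq_single j]
    · exact (hf j).injective.extend_apply _ _ _
    · intro i _ hij
      apply Function.extend_apply'
      rintro ⟨w', h⟩
      exact hij (hd _ _ _ _ h)
    · simp
  have hUfin : ∫⁻ x, U x ∂(mix m f) < ∞ := by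
    have : ∫⁻ x, U x ∂(mix m f) ≤ ∫⁻ _x, 2 ∂(mix m f) := by
      apply lintegral_mono_ae
      filter_upwards [ae_mem_range m hf] with x ⟨i, w, hx⟩
      rw [hx, hUf]; exact hb i w
    refine this.trans_lt ?_
    simp
  have hsum : ∀ (π : Measure (X × X × X)), π.map (fun p => p.1) = mix m f →
      π.map (fun p => p.2.1) = mix m f → π.map (fun p => p.2.2) = mix m f →
      ∫⁻ p, (U p.1 + U p.2.1 + U p.2.2) ∂π =
        ∫⁻ x, U x ∂(mix m f) + ∫⁻ x, U x ∂(mix m f) + ∫⁻ x, U x ∂(mix m f) := by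
    intro π a b c
    have m1 : Measurable (fun p : X × X × X => p.1) := measurable_fst
    have m2 : Measurable (fun p : X × X × X => p.2.1) := measurable_snd.fst
    have m3 : Measurable (fun p : X × X × X => p.2.2) := measurable_snd.snd
    have n2 : Measurable (fun p : X × X × X => U p.2.1) := hUm.comp m2
    have n3 : Measurable (fun p : X × X × X => U p.2.2) := hUm.comp m3
    rw [lintegral_add_right _ n3, lintegral_add_right _ n2,
      ← lintegral_map hUm m1, ← lintegral_map hUm m2, ← lintegral_map hUm m3, a, b, c]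
  have hplan : ∫⁻ p, c p.1 p.2.1 p.2.2 ∂(plan m f) =
      ∫⁻ x, U x ∂(mix m f) + ∫⁻ x, U x ∂(mix m f) + ∫⁻ x, U x ∂(mix m f) := by
    rw [← hsum _ (plan_fst m f hfm) (plan_snd m f hfm) (plan_thd m f hfm)]
    apply lintegral_congr_ae
    have hs : MeasurableSet {p : X × X × X | c p.1 p.2.1 p.2.2 = U p.1 + U p.2.1 + U p.2.2} :=
      measurableSet_eq_fun hc (((hUm.comp measurable_fst).add (hUm.comp measurable_snd.fst)).add
        (hUm.comp measurable_snd.snd))
    have h : ∀ i j k, (∀ w, c (f i w) (f j w) (f k w) = v i w + v j w + v k w) →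
        ∀ᵐ p ∂(m.map (fun w => (f i w, f j w, f k w))),
          c p.1 p.2.1 p.2.2 = U p.1 + U p.2.1 + U p.2.2 := fun i j k h =>
      (ae_map_iff (meas3 f hfm i j k).aemeasurable hs).2
        (Filter.Eventually.of_forall fun w => by simp only [hUf]; exact h w)
    unfold plan
    refine Measure.ae_smul_measure ?_ _
    simp only [ae_add_measure_iff]
    refine ⟨⟨⟨⟨⟨h _ _ _ H2, h _ _ _ ?_⟩, h _ _ _ ?_⟩, h _ _ _ H2'⟩, h _ _ _ ?_⟩, h _ _ _ ?_⟩
    · intro w; rw [← hcyc, H2]; ring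
    · intro w; rw [hcyc, H2]; ring
    · intro w; rw [← hcyc, H2']; ring
    · intro w; rw [hcyc, H2']; ring
  have hfin : ∫⁻ x, U x ∂(mix m f) + ∫⁻ x, U x ∂(mix m f) + ∫⁻ x, U x ∂(mix m f) < ∞ := by
    simp only [ENNReal.add_lt_top]; exact ⟨⟨hUfin, hUfin⟩, hUfin⟩
  refine ⟨hplan ▸ hfin, ?_⟩
  intro T₂ T₃ h₂ h₃ e₂ e₃
  by_contra hlt
  rw [not_lt, hplan] at hlt
  have hG : Measurable (fun x => (x, T₂ x, T₃ x)) := measurable_id.prodMk (h₂.prodMk h₃)
  have hM : ∫⁻ x, (U x + U (T₂ x) + U (T₃ x)) ∂(mix m f) =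
      ∫⁻ x, U x ∂(mix m f) + ∫⁻ x, U x ∂(mix m f) + ∫⁻ x, U x ∂(mix m f) := by
    have n2 : Measurable (fun x => U (T₂ x)) := hUm.comp h₂
    have n3 : Measurable (fun x => U (T₃ x)) := hUm.comp h₃
    rw [lintegral_add_right _ n3, lintegral_add_right _ n2,
      ← lintegral_map hUm h₂, ← lintegral_map hUm h₃, e₂, e₃]
  have r1 := ae_mem_range m hf
  have r2 : ∀ᵐ x ∂(mix m f), ∃ i w, T₂ x = f i w := by
    apply ae_of_ae_map h₂.aemeasurable (p := fun y => ∃ i w, y = f i w)
    rw [e₂]; exact r1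
  have r3 : ∀ᵐ x ∂(mix m f), ∃ i w, T₃ x = f i w := by
    apply ae_of_ae_map h₃.aemeasurable (p := fun y => ∃ i w, y = f i w)
    rw [e₃]; exact r1
  have hle : (fun x => U x + U (T₂ x) + U (T₃ x)) ≤ᵐ[mix m f] fun x => c x (T₂ x) (T₃ x) := by
    filter_upwards [r1, r2, r3] with x ⟨i, w₁, hx⟩ ⟨j, w₂, hy⟩ ⟨k, w₃, hz⟩
    rw [hy, hz, hx, hUf, hUf, hUf]
    exact H1 _ _ _ _ _ _
  have heq := ae_eq_of_ae_le_of_lintegral_le hle (hM ▸ hfin.ne) (hc.comp hG).aemeasurable
    (hM ▸ hlt)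
  apply no_contact_map m hf hd h₂ h₃ e₂ e₃
  filter_upwards [r1, r2, r3, heq] with x ⟨i, w₁, hx⟩ ⟨j, w₂, hy⟩ ⟨k, w₃, hz⟩ h
  rw [hy, hz] at h
  rw [hx, hUf, hUf, hUf] at h
  obtain ⟨rfl, rfl, hijk⟩ := H3 _ _ _ _ _ _ h
  exact ⟨i, j, k, w₁, hx, hy, hz, hijk⟩

end Vale.Agent.P121
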