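import Mathlib

/-!
Analytic part of the counterexample: the Coulomb force field, its derivative, the
semiconvexity inequality and the implicit function.
-/

open Set Filter
open scoped Topology RealInnerProductSpace ContDiff

namespace Vale.Agent.P121

variable {E : Type*} [NormedAddCommGroup E] [InnerProductSpace ℝ E]

/-- The Coulomb force field `x / |x|^3`. -/
noncomputable def force (x : E) : E := (‖x‖ ^ 3)⁻¹ • x

theorem force_neg (x : E) : force (-x) = -force x := by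
  simp [force]

theorem contDiffAt_force {x : E} (hx : x ≠ 0) : ContDiffAt ℝ ω (force : E → E) x := by
  unfold force
  exact (((contDiffAt_norm ℝ hx).pow 3).inv (pow_ne_zero 3 (norm_ne_zero_iff.2 hx))).smul
    contDiffAt_id

theorem hasFDerivAt_norm' {x : E} (hx : x ≠ 0) :
    HasFDerivAt (fun y : E => ‖y‖) (‖x‖⁻¹ • innerSL ℝ x) x := by
  have h0 : ‖x‖ ≠ 0 := norm_ne_zero_iff.2 hx
  have h := ((hasStrictFDerivAt_norm_sq x).hasFDerivAt).sqrt (pow_ne_zero 2 h0)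
  simp only [Real.sqrt_sq (norm_nonneg _)] at h
  convert h using 1
  ext v
  simp only [smul_apply, smul_eq_mul, two_smul, add_apply]
  field_simp
  ring

theorem fderiv_force {x : E} (hx : x ≠ 0) (v : E) :
    fderiv ℝ force x v = (‖x‖ ^ 3)⁻¹ • v - (3 * (‖x‖ ^ 5)⁻¹ * ⟪x, v⟫) • x := by
  have h0 : ‖x‖ ≠ 0 := norm_ne_zero_iff.2 hx
  have h1 := ((hasFDerivAt_norm' hx).pow 3)
  have h2 := (hasDerivAt_inv (pow_ne_zero 3 h0)).comp_hasFDerivAt x h1
  have h3 := h2.smul (hasFDerivAt_id x)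
  have : fderiv ℝ force x = _ := h3.fderiv
  rw [this]
  simp only [add_apply, smul_apply, Function.comp,
    ContinuousLinearMap.smulRight_apply, ContinuousLinearMap.id_apply, id, smul_eq_mul,
    innerSL_apply_apply, nsmul_eq_mul]
  rw [sub_eq_add_neg, ← neg_smul]
  congr 2
  field_simp
  norm_num
  ring

/-- Global semiconvexity inequality for `1/|x|`. -/
theorem inv_norm_ge {x y : E} (hx : x ≠ 0) (hy : y ≠ 0) :
    ‖x‖⁻¹ - ⟪force x, y - x⟫ - (‖x‖ ^ 3)⁻¹ / 2 * ‖y - x‖ ^ 2 ≤ ‖y‖⁻¹ := by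
  have hs : 0 < ‖x‖ := norm_pos_iff.2 hx
  have ht : 0 < ‖y‖ := norm_pos_iff.2 hy
  have h1 : ‖y‖ ^ 2 = ‖x‖ ^ 2 + 2 * ⟪x, y - x⟫ + ‖y - x‖ ^ 2 := by
    rw [← norm_add_sq_real]; simp
  have h2 : ⟪force x, y - x⟫ = (‖x‖ ^ 3)⁻¹ * ((‖y‖ ^ 2 - ‖x‖ ^ 2 - ‖y - x‖ ^ 2) / 2) := by
    rw [force, real_inner_smul_left, h1]; ring
  rw [h2]
  set s := ‖x‖
  set t := ‖y‖
  have : t⁻¹ - (s⁻¹ - (s ^ 3)⁻¹ * ((t ^ 2 - s ^ 2 - ‖y - x‖ ^ 2) / 2)
      - (s ^ 3)⁻¹ / 2 * ‖y - x‖ ^ 2) = (t - s) ^ 2 * (t + 2 * s) / (2 * t * s ^ 3) := by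
    field_simp
    ring
  have h3 : 0 ≤ (t - s) ^ 2 * (t + 2 * s) / (2 * t * s ^ 3) := by positivity
  linarith

/-- Real Coulomb cost. -/
noncomputable def rcost (x y z : E) : ℝ := ‖x - y‖⁻¹ + ‖x - z‖⁻¹ + ‖y - z‖⁻¹

/-- Potential near the origin. -/
noncomputable def uA (a : E) : ℝ := 3 / 2 - 4 * ‖a‖ ^ 2

/-- Potential near `e`. -/
noncomputable def uB (e b : E) : ℝ := 1 / 2 - 4 * ‖b - e‖ ^ 2 - 5 / 4 * ⟪e, b - e⟫

/-- The criticality equations. -/
noncomputable def crit (e : E) (p : E × E × E) : E × E :=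
  ((8 : ℝ) • p.1 - force (p.1 - p.2.1) - force (p.1 - p.2.2),
   (8 : ℝ) • (p.2.1 - e) + (5 / 4 : ℝ) • e - force (p.2.1 - p.1) - force (p.2.1 - p.2.2))

omit [InnerProductSpace ℝ E] in
theorem inv_cube_le {x : E} (hx : 9 / 10 ≤ ‖x‖) : (‖x‖ ^ 3)⁻¹ / 2 ≤ 1 := by
  have : (9 / 10 : ℝ) ^ 3 ≤ ‖x‖ ^ 3 := pow_le_pow_left₀ (by norm_num) hx 3
  have h2 : (‖x‖ ^ 3)⁻¹ ≤ ((9 / 10 : ℝ) ^ 3)⁻¹ := inv_anti₀ (by norm_num) this
  norm_num at h2 ⊢
  linarith

theorem core_ineq (e a₁ b₁ c a b : E) (hcrit : crit e (a₁, b₁, c) = 0)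
    (h1 : 9 / 10 ≤ ‖a₁ - b₁‖) (h2 : 9 / 10 ≤ ‖a₁ - c‖) (h3 : 9 / 10 ≤ ‖b₁ - c‖)
    (hab : a - b ≠ 0) (hac : a - c ≠ 0) (hbc : b - c ≠ 0) :
    rcost a₁ b₁ c - uA a₁ - uB e b₁ + (‖a - a₁‖ ^ 2 + ‖b - b₁‖ ^ 2) ≤
      rcost a b c - uA a - uB e b := by
  have n1 : a₁ - b₁ ≠ 0 := norm_pos_iff.1 (by linarith)
  have n2 : a₁ - c ≠ 0 := norm_pos_iff.1 (by linarith)
  have n3 : b₁ - c ≠ 0 := norm_pos_iff.1 (by linarith)
  have i1 := inv_norm_ge n1 hab
  have i2 := inv_norm_ge n2 hac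
  have i3 := inv_norm_ge n3 hbc
  have c1 := inv_cube_le h1
  have c2 := inv_cube_le h2
  have c3 := inv_cube_le h3
  set da := a - a₁ with hda
  set db := b - b₁ with hdb
  have e1 : a - b - (a₁ - b₁) = da - db := by simp only [hda, hdb]; abel
  have e2 : a - c - (a₁ - c) = da := by simp only [hda]; abel
  have e3 : b - c - (b₁ - c) = db := by simp only [hdb]; abel
  rw [e1] at i1
  rw [e2] at i2
  rw [e3] at i3
  simp only [crit, Prod.mk_eq_zero] at hcrit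
  obtain ⟨k1, k2⟩ := hcrit
  have fb : force (b₁ - a₁) = -force (a₁ - b₁) := by rw [← force_neg]; simp
  rw [fb] at k2
  have q1 : 8 * ⟪a₁, da⟫ - ⟪force (a₁ - b₁), da⟫ - ⟪force (a₁ - c), da⟫ = 0 := by
    have := congrArg (fun z => ⟪z, da⟫) k1
    simpa [inner_sub_left, real_inner_smul_left] using this
  have q2 : 8 * ⟪b₁ - e, db⟫ + 5 / 4 * ⟪e, db⟫ + ⟪force (a₁ - b₁), db⟫
      - ⟪force (b₁ - c), db⟫ = 0 := by
    have := congrArg (fun z => ⟪z, db⟫) k2
    simpa only [inner_sub_left (_ + _ - _), inner_add_left, real_inner_smul_left, inner_zero_left,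
      sub_neg_eq_add, inner_sub_left (_ + _ + _)] using this
  have na : ‖a‖ ^ 2 = ‖a₁‖ ^ 2 + 2 * ⟪a₁, da⟫ + ‖da‖ ^ 2 := by
    rw [← norm_add_sq_real]; simp [hda]
  have nb : ‖b - e‖ ^ 2 = ‖b₁ - e‖ ^ 2 + 2 * ⟪b₁ - e, db⟫ + ‖db‖ ^ 2 := by
    rw [← norm_add_sq_real]; congr 2; simp only [hdb]; abel
  have lb : ⟪e, b - e⟫ = ⟪e, b₁ - e⟫ + ⟪e, db⟫ := by
    rw [← inner_add_right]; congr 1; simp only [hdb]; abel
  have nd : ‖da - db‖ ^ 2 ≤ 2 * ‖da‖ ^ 2 + 2 * ‖db‖ ^ 2 := by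
    have := norm_sub_le da db
    have h' : ‖da - db‖ ^ 2 ≤ (‖da‖ + ‖db‖) ^ 2 := pow_le_pow_left₀ (norm_nonneg _) this 2
    nlinarith [sq_nonneg (‖da‖ - ‖db‖)]
  rw [inner_sub_right] at i1
  have m1 : (‖a₁ - b₁‖ ^ 3)⁻¹ / 2 * ‖da - db‖ ^ 2 ≤ ‖da - db‖ ^ 2 :=
    mul_le_of_le_one_left (sq_nonneg _) c1
  have m2 : (‖a₁ - c‖ ^ 3)⁻¹ / 2 * ‖da‖ ^ 2 ≤ ‖da‖ ^ 2 :=
    mul_le_of_le_one_left (sq_nonneg _) c2
  have m3 : (‖b₁ - c‖ ^ 3)⁻¹ / 2 * ‖db‖ ^ 2 ≤ ‖db‖ ^ 2 :=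
    mul_le_of_le_one_left (sq_nonneg _) c3
  simp only [rcost, uA, uB]
  rw [na, nb, lb]
  linarith

theorem crit_base {e : E} (he : ‖e‖ = 1) : crit e (0, e, -e) = 0 := by
  have h2 : e - -e = (2 : ℝ) • e := by rw [two_smul]; abel
  simp only [crit, Prod.mk_eq_zero, force, zero_sub, neg_neg, norm_neg, he, sub_zero, h2,
    norm_smul, sub_self]
  constructor
  · simp
  · simp only [Real.norm_ofNat]
    module

theorem contDiffAt_crit {e : E} (he : ‖e‖ = 1) : ContDiffAt ℝ ω (crit e) (0, e, -e) := by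
  have h0 : e ≠ 0 := norm_ne_zero_iff.1 (by rw [he]; norm_num)
  have h2 : e - -e ≠ 0 := by
    have : e - -e = (2 : ℝ) • e := by rw [two_smul]; abel
    rw [this]; exact smul_ne_zero (by norm_num) h0
  unfold crit
  have f1 : ContDiffAt ℝ ω (fun p : E × E × E => force (p.1 - p.2.1)) (0, e, -e) :=
    (contDiffAt_force (by simpa using h0)).comp (0, e, -e) (f := fun p : E × E × E => p.1 - p.2.1)
      (by fun_prop)
  have f2 : ContDiffAt ℝ ω (fun p : E × E × E => force (p.1 - p.2.2)) (0, e, -e) :=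
    (contDiffAt_force (by simpa using h0)).comp (0, e, -e) (f := fun p : E × E × E => p.1 - p.2.2)
      (by fun_prop)
  have f3 : ContDiffAt ℝ ω (fun p : E × E × E => force (p.2.1 - p.1)) (0, e, -e) :=
    (contDiffAt_force (by simpa using h0)).comp (0, e, -e) (f := fun p : E × E × E => p.2.1 - p.1)
      (by fun_prop)
  have f4 : ContDiffAt ℝ ω (fun p : E × E × E => force (p.2.1 - p.2.2)) (0, e, -e) :=
    (contDiffAt_force h2).comp (0, e, -e) (f := fun p : E × E × E => p.2.1 - p.2.2)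
      (by fun_prop)
  refine ContDiffAt.prodMk (ContDiffAt.sub (ContDiffAt.sub (by fun_prop) f1) f2)
    (ContDiffAt.sub (ContDiffAt.sub (by fun_prop) f3) f4)

/-- The linear map `3 e e^T - I`. -/
noncomputable def lam (e v : E) : E := (3 * ⟪e, v⟫) • e - v

theorem fderiv_crit {e : E} (he : ‖e‖ = 1) (u v w : E) :
    fderiv ℝ (crit e) (0, e, -e) (u, v, w) =
      ((8 : ℝ) • u + lam e (u - v) + lam e (u - w),
       (8 : ℝ) • v + lam e (v - u) + (1 / 8 : ℝ) • lam e (v - w)) := by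
  have h0 : e ≠ 0 := norm_ne_zero_iff.1 (by rw [he]; norm_num)
  have h2' : e - -e = (2 : ℝ) • e := by rw [two_smul]; abel
  have h2 : e - -e ≠ 0 := by
    rw [h2']; exact smul_ne_zero (by norm_num) h0
  have df : ∀ x : E, x ≠ 0 → HasFDerivAt force (fderiv ℝ force x) x := fun x hx =>
    ((contDiffAt_force hx).differentiableAt (by simp)).hasFDerivAt
  have p1 : HasFDerivAt (fun p : E × E × E => p.1) (ContinuousLinearMap.fst ℝ E (E × E))
    (0, e, -e) := hasFDerivAt_fst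
  have p2 : HasFDerivAt (fun p : E × E × E => p.2.1)
    ((ContinuousLinearMap.fst ℝ E E).comp (ContinuousLinearMap.snd ℝ E (E × E))) (0, e, -e) :=
    hasFDerivAt_snd.fst
  have p3 : HasFDerivAt (fun p : E × E × E => p.2.2)
    ((ContinuousLinearMap.snd ℝ E E).comp (ContinuousLinearMap.snd ℝ E (E × E))) (0, e, -e) :=
    hasFDerivAt_snd.snd
  have f1 := (df (0 - e) (by simpa using h0)).comp (0, e, -e) (p1.sub p2)
  have f2 := (df (0 - -e) (by simpa using h0)).comp (0, e, -e) (p1.sub p3)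
  have f3 := (df (e - 0) (by simpa using h0)).comp (0, e, -e) (p2.sub p1)
  have f4 := (df (e - -e) h2).comp (0, e, -e) (p2.sub p3)
  have g1 := ((p1.const_smul (8 : ℝ)).sub f1).sub f2
  have g2 := (((((p2.sub_const e).const_smul (8 : ℝ)).add_const ((5 / 4 : ℝ) • e)).sub f3).sub f4)
  have : fderiv ℝ (crit e) (0, e, -e) = _ := (g1.prodMk g2).fderiv
  rw [this]
  simp only [ContinuousLinearMap.prod_apply, sub_apply,
    smul_apply, ContinuousLinearMap.comp_apply, ContinuousLinearMap.coe_fst',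
    ContinuousLinearMap.coe_snd']
  rw [fderiv_force (by simpa using h0), fderiv_force (by simpa using h0),
    fderiv_force (by simpa using h0), fderiv_force h2, h2']
  simp only [zero_sub, neg_neg, sub_zero, norm_neg, he, norm_smul, Real.norm_ofNat, lam,
    inner_neg_left, real_inner_smul_left]
  refine Prod.ext ?_ ?_ <;> simp only <;> module

theorem inner_lam {e : E} (he : ‖e‖ = 1) (v : E) : ⟪e, lam e v⟫ = 2 * ⟪e, v⟫ := by
  simp only [lam, inner_sub_right, real_inner_smul_right, real_inner_self_eq_norm_sq, he]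
  ring

theorem ker_crit {e : E} (he : ‖e‖ = 1) (u v w : E)
    (h : fderiv ℝ (crit e) (0, e, -e) (u, v, w) = 0) (h' : u = 0 ∨ v = 0 ∨ w = 0) :
    u = 0 ∧ v = 0 ∧ w = 0 := by
  rw [fderiv_crit he, Prod.mk_eq_zero] at h
  obtain ⟨h1, h2⟩ := h
  have s1 := congrArg (fun z => ⟪e, z⟫) h1
  have s2 := congrArg (fun z => ⟪e, z⟫) h2
  simp only [inner_add_right, real_inner_smul_right, inner_lam he, inner_sub_right,
    inner_zero_right] at s1 s2
  have hz : ⟪e, u⟫ = 0 ∧ ⟪e, v⟫ = 0 ∧ ⟪e, w⟫ = 0 := by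
    rcases h' with rfl | rfl | rfl <;> simp only [inner_zero_right] at s1 s2 ⊢ <;>
      refine ⟨?_, ?_, ?_⟩ <;> first | trivial | linarith
  simp only [lam, inner_sub_right, hz.1, hz.2.1, hz.2.2, sub_self, mul_zero, zero_smul,
    zero_sub] at h1 h2
  rcases h' with rfl | rfl | rfl
  · have hv : v = 0 := by
      linear_combination (norm := module) (4 / 27 : ℝ) • h2 - (1 / 54 : ℝ) • h1
    subst hv
    refine ⟨rfl, rfl, ?_⟩
    linear_combination (norm := module) h1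
  · have hu : u = 0 := by
      linear_combination (norm := module) (4 : ℝ) • h2 - (1 / 2 : ℝ) • h1
    subst hu
    refine ⟨rfl, rfl, ?_⟩
    linear_combination (norm := module) h1
  · have hv : v = 0 := by
      linear_combination (norm := module) (24 / 161 : ℝ) • h2 - (4 / 161 : ℝ) • h1
    subst hv
    refine ⟨?_, rfl, rfl⟩
    linear_combination (norm := module) h2

theorem isInvertible_of_ker {F : Type*} [NormedAddCommGroup F] [NormedSpace ℝ F]
    [FiniteDimensional ℝ F] (L : F →L[ℝ] F) (h : ∀ v, L v = 0 → v = 0) : L.IsInvertible := by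
  have : CompleteSpace F := FiniteDimensional.complete ℝ F
  have hk : L.ker = ⊥ := LinearMap.ker_eq_bot'.2 h
  have hr : L.range = ⊤ := LinearMap.ker_eq_bot_iff_range_eq_top.1 hk
  exact ⟨ContinuousLinearEquiv.ofBijective L hk hr, rfl⟩

/-- The implicit function: analytic maps `S`, `R` near `0` with invertible derivatives. -/
theorem exists_implicit [FiniteDimensional ℝ E] {e : E} (he : ‖e‖ = 1) :
    ∃ S R : E → E, S 0 = e ∧ R 0 = -e ∧ ContDiffAt ℝ ω S 0 ∧ ContDiffAt ℝ ω R 0 ∧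
      (fderiv ℝ S 0).IsInvertible ∧ (fderiv ℝ R 0).IsInvertible ∧
      ∀ᶠ a in 𝓝 (0 : E), crit e (a, S a, R a) = 0 := by
  have : CompleteSpace E := FiniteDimensional.complete ℝ E
  have cdf := contDiffAt_crit he
  have hinv : (fderiv ℝ (crit e) (0, e, -e) ∘L .inr ℝ E (E × E)).IsInvertible := by
    apply isInvertible_of_ker
    rintro ⟨v, w⟩ h
    have := ker_crit he 0 v w (by simpa using h) (Or.inl rfl)
    simp [this.2.1, this.2.2]
  set ψ := cdf.implicitFunction (by simp) hinv with hψ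
  have h0 : ψ 0 = (e, -e) := cdf.implicitFunction_apply_self (by simp) hinv
  have hc : ContDiffAt ℝ ω ψ 0 := cdf.contDiffAt_implicitFunction (by simp) hinv
  have hev : ∀ᶠ a in 𝓝 (0 : E), crit e (a, ψ a) = 0 := by
    have := cdf.eventually_apply_implicitFunction (by simp) hinv
    rwa [crit_base he] at this
  have hd : HasFDerivAt ψ (fderiv ℝ ψ 0) 0 := (hc.differentiableAt (by simp)).hasFDerivAt
  have hchain : ∀ u, fderiv ℝ (crit e) (0, e, -e) (u, fderiv ℝ ψ 0 u) = 0 := by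
    intro u
    have h1 : HasFDerivAt (crit e) (fderiv ℝ (crit e) (0, e, -e)) ((0 : E), ψ 0) := by
      rw [h0]; exact (cdf.differentiableAt (by simp)).hasFDerivAt
    have h2 := h1.comp (0 : E) ((hasFDerivAt_id (0 : E)).prodMk hd)
    have h3 : HasFDerivAt (crit e ∘ fun a => (id a, ψ a)) (0 : E →L[ℝ] E × E) 0 :=
      (hasFDerivAt_const (0 : E × E) (0 : E)).congr_of_eventuallyEq hev
    have := congrArg (fun L => L u) (h2.unique h3)
    simpa using this
  refine ⟨fun a => (ψ a).1, fun a => (ψ a).2, by simp [h0], by simp [h0], hc.fst, hc.snd,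
    ?_, ?_, hev⟩
  · apply isInvertible_of_ker
    intro u hu
    rw [hd.fst.fderiv] at hu
    exact (ker_crit he u _ _ (hchain u) (Or.inr (Or.inl hu))).1
  · apply isInvertible_of_ker
    intro u hu
    rw [hd.snd.fderiv] at hu
    exact (ker_crit he u _ _ (hchain u) (Or.inr (Or.inr hu))).1

end Vale.Agent.P121
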