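import Mathlib

open MeasureTheory
open scoped ENNReal

namespace Vale.Agent.P121

/-- The three-particle Coulomb cost, equal to `∞` when two points coincide. -/
noncomputable def coulomb {d : ℕ} (x y z : EuclideanSpace ℝ (Fin d)) : ℝ≥0∞ :=
  (edist x y)⁻¹ + (edist x z)⁻¹ + (edist y z)⁻¹

/-- Probability measures on triples whose three marginals all equal `μ`. -/
def couplings {d : ℕ} (μ : Measure (EuclideanSpace ℝ (Fin d))) :
    Set (Measure (EuclideanSpace ℝ (Fin d) × EuclideanSpace ℝ (Fin d) × EuclideanSpace ℝ (Fin d))) :=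
  {γ | IsProbabilityMeasure γ ∧ γ.map (fun p => p.1) = μ ∧ γ.map (fun p => p.2.1) = μ ∧
    γ.map (fun p => p.2.2) = μ}

/-- The Kantorovich value of the three-marginal Coulomb problem. -/
noncomputable def kantorovich {d : ℕ} (μ : Measure (EuclideanSpace ℝ (Fin d))) : ℝ≥0∞ :=
  ⨅ γ ∈ couplings μ, ∫⁻ p, coulomb p.1 p.2.1 p.2.2 ∂γ

end Vale.Agent.P121
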