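import Mathlib

/-!
Local analytic diffeomorphisms push smooth compactly supported densities to such densities.
-/

open Set Filter MeasureTheory Metric
open scoped Topology ContDiff ENNReal

namespace Vale.Agent.P121

variable {E : Type*} [NormedAddCommGroup E] [NormedSpace ℝ E] [FiniteDimensional ℝ E]

theorem contDiff_det : ContDiff ℝ ∞ (fun L : E →L[ℝ] E => L.det) := by
  classical
  let b := Module.finBasis ℝ E
  have : (fun L : E →L[ℝ] E => L.det) = fun L : E →L[ℝ] E =>
      ∑ σ : Equiv.Perm (Fin (Module.finrank ℝ E)), ((Equiv.Perm.sign σ : ℤ) : ℝ) *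
        ∏ i, (LinearMap.toContinuousLinearMap (b.coord (σ i))) (L (b i)) := by
    funext L
    rw [ContinuousLinearMap.det, ← LinearMap.det_toMatrix b, Matrix.det_apply']
    simp [LinearMap.toMatrix_apply]
  rw [this]
  refine ContDiff.sum fun σ _ => contDiff_const.mul (contDiff_prod fun i _ => ?_)
  exact (ContinuousLinearMap.contDiff _).comp
    (ContinuousLinearMap.apply ℝ E (b i)).contDiff

variable [MeasurableSpace E] [BorelSpace E]

/-- What is needed of a map on a small ball. -/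
structure Good (vol : Measure E) (S : E → E) (r : ℝ) : Prop where
  cont : ContinuousOn S (ball 0 r)
  inj : InjOn S (ball 0 r)
  dens : ∀ ρ : E → ℝ, ContDiff ℝ ∞ ρ → (∀ x, 0 ≤ ρ x) → HasCompactSupport ρ →
    tsupport ρ ⊆ ball 0 r → ∃ ρ' : E → ℝ, ContDiff ℝ ∞ ρ' ∧ HasCompactSupport ρ' ∧
      (∀ x, 0 ≤ ρ' x) ∧ ∀ N, MeasurableSet N →
        vol.withDensity (fun x => ENNReal.ofReal (ρ x)) (ball 0 r ∩ S ⁻¹' N) =
          vol.withDensity (fun x => ENNReal.ofReal (ρ' x)) N

theorem exists_good (vol : Measure E) [vol.IsAddHaarMeasure] {S : E → E}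
    (hS : ContDiffAt ℝ ω S 0) (hi : (fderiv ℝ S 0).IsInvertible) :
    ∃ r₀ > 0, ∀ r ≤ r₀, Good vol S r := by
  have : CompleteSpace E := FiniteDimensional.complete ℝ E
  obtain ⟨A, hA⟩ := hi
  have hd : HasFDerivAt S (A : E →L[ℝ] E) 0 := by
    rw [hA]; exact (hS.differentiableAt (by simp)).hasFDerivAt
  set φ := hS.toOpenPartialHomeomorph S hd (by simp) with hφ
  have hφS : (φ : E → E) = S := rfl
  set T : E → E := hS.localInverse hd (by simp) with hT
  have hTφ : (φ.symm : E → E) = T := rfl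
  have hTc : ContDiffAt ℝ ω T (S 0) := hS.to_localInverse hd (by simp)
  have hTd : HasFDerivAt T (A.symm : E →L[ℝ] E) (S 0) :=
    (hS.hasStrictFDerivAt' hd (by simp)).to_localInverse.hasFDerivAt
  have hdet0 : (fderiv ℝ T (S 0)).det ≠ 0 := by
    rw [hTd.fderiv]
    exact (A.symm.toLinearEquiv.isUnit_det').ne_zero
  have hcont : ContinuousAt (fun y => (fderiv ℝ T y).det) (S 0) :=
    contDiff_det.continuous.continuousAt.comp
      (hTc.fderiv_right (m := 0) (by simp)).continuousAt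
  have ev1 : ∀ᶠ y in 𝓝 (S 0), ContDiffAt ℝ ω T y ∧ (fderiv ℝ T y).det ≠ 0 :=
    (hTc.eventually (by simp)).and (hcont.eventually_ne hdet0)
  have ev2 : ∀ᶠ a in 𝓝 (0 : E), a ∈ φ.source ∧
      (ContDiffAt ℝ ω T (S a) ∧ (fderiv ℝ T (S a)).det ≠ 0) :=
    (φ.open_source.eventually_mem (hS.mem_toOpenPartialHomeomorph_source hd (by simp))).and
      (hS.continuousAt.eventually ev1)
  obtain ⟨r₀, hr₀, H⟩ := Metric.eventually_nhds_iff_ball.1 ev2
  refine ⟨r₀, hr₀, fun r hr => ?_⟩
  have hsub : ball (0 : E) r ⊆ φ.source := fun a ha => (H a (ball_subset_ball hr ha)).1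
  have hcS : ContinuousOn S (ball 0 r) := φ.continuousOn.mono hsub
  have hTS : ∀ a ∈ ball (0 : E) r, T (S a) = a := fun a ha => φ.left_inv (hsub ha)
  refine ⟨hcS, φ.injOn.mono hsub, ?_⟩
  intro ρ hρ hρ0 hρc hρs
  set V := S '' ball 0 r with hV
  have hVo : IsOpen V := φ.isOpen_image_of_subset_source isOpen_ball hsub
  have hVT : ∀ y ∈ V, ContDiffAt ℝ ω T y ∧ (fderiv ℝ T y).det ≠ 0 := by
    rintro _ ⟨a, ha, rfl⟩
    exact (H a (ball_subset_ball hr ha)).2
  set K := S '' tsupport ρ with hK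
  have hKc : IsCompact K := hρc.isCompact.image_of_continuousOn (hcS.mono hρs)
  set ρ' : E → ℝ := V.indicator fun y => |(fderiv ℝ T y).det| * ρ (T y) with hρ'
  have hz : ∀ y, y ∉ K → ρ' y = 0 := by
    intro y hy
    by_cases hyV : y ∈ V
    · obtain ⟨a, ha, rfl⟩ := hyV
      have : ρ a = 0 := by
        by_contra h
        exact hy ⟨a, subset_tsupport _ h, rfl⟩
      simp [hρ', indicator, hTS a ha, this]
    · simp [hρ', hyV]
  refine ⟨ρ', ?_, HasCompactSupport.intro hKc hz, ?_, ?_⟩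
  · rw [contDiff_iff_contDiffAt]
    intro y
    by_cases hyV : y ∈ V
    · have h1 : ContDiffAt ℝ ∞ (fun y => |(fderiv ℝ T y).det| * ρ (T y)) y := by
        refine ContDiffAt.mul (ContDiffAt.abs ?_ (hVT y hyV).2)
          (hρ.contDiffAt.comp y ((hVT y hyV).1.of_le (by simp)))
        exact contDiff_det.contDiffAt.comp y ((hVT y hyV).1.fderiv_right (m := ∞) (by simp))
      refine h1.congr_of_eventuallyEq ?_
      filter_upwards [hVo.eventually_mem hyV] with z hz
      simp [hρ', hz]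
    · have hyK : y ∉ K := fun h => hyV (image_mono hρs h)
      refine (contDiffAt_const (c := (0 : ℝ))).congr_of_eventuallyEq ?_
      filter_upwards [hKc.isClosed.isOpen_compl.eventually_mem hyK] with z hz'
      exact hz z hz'
  · intro y
    exact indicator_nonneg (fun z _ => mul_nonneg (abs_nonneg _) (hρ0 _)) y
  · intro N hN
    have him : ball 0 r ∩ S ⁻¹' N = T '' (V ∩ N) := by
      ext a
      constructor
      · rintro ⟨ha, hN⟩
        exact ⟨S a, ⟨⟨a, ha, rfl⟩, hN⟩, hTS a ha⟩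
      · rintro ⟨_, ⟨⟨b, hb, rfl⟩, hN⟩, rfl⟩
        rw [hTS b hb]
        exact ⟨hb, hN⟩
    have hinj : InjOn T (V ∩ N) := by
      rintro _ ⟨⟨a, ha, rfl⟩, -⟩ _ ⟨⟨b, hb, rfl⟩, -⟩ h
      rw [hTS a ha, hTS b hb] at h
      rw [h]
    have hm : MeasurableSet (V ∩ N) := hVo.measurableSet.inter hN
    have hder : ∀ y ∈ V ∩ N, HasFDerivWithinAt T (fderiv ℝ T y) (V ∩ N) y := fun y hy =>
      (((hVT y hy.1).1.differentiableAt (by simp)).hasFDerivAt).hasFDerivWithinAt
    have hm' : MeasurableSet (T '' (V ∩ N)) := measurable_image_of_fderivWithin hm hder hinj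
    rw [him, withDensity_apply _ hm', withDensity_apply _ hN,
      lintegral_image_eq_lintegral_abs_det_fderiv_mul vol hm hder hinj,
      ← Measure.restrict_restrict hVo.measurableSet, ← lintegral_indicator hVo.measurableSet]
    congr 1
    funext y
    by_cases hy : y ∈ V
    · simp [hρ', hy, ENNReal.ofReal_mul (abs_nonneg _)]
    · simp [hρ', hy]

end Vale.Agent.P121
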