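import Vale.Agent.P121.Abstract
import Vale.Agent.P121.Analytic

/-!
The dual inequality on five small blobs around `0, e, -e, e', -e'`.
-/

open Set
open scoped RealInnerProductSpace ENNReal

namespace Vale.Agent.P121

variable {E : Type*} [NormedAddCommGroup E] [InnerProductSpace ℝ E]

/-- Extended Coulomb cost on a normed space. -/
noncomputable def ecost (x y z : E) : ℝ≥0∞ := (edist x y)⁻¹ + (edist x z)⁻¹ + (edist y z)⁻¹

omit [InnerProductSpace ℝ E] in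
theorem ecost_swap (x y z : E) : ecost x y z = ecost y x z := by
  simp only [ecost, edist_comm y x]; ring

omit [InnerProductSpace ℝ E] in
theorem ecost_swap' (x y z : E) : ecost x y z = ecost x z y := by
  simp only [ecost, edist_comm z y]; ring

omit [InnerProductSpace ℝ E] in
theorem ecost_eq {x y z : E} (h1 : x - y ≠ 0) (h2 : x - z ≠ 0) (h3 : y - z ≠ 0) :
    ecost x y z = ENNReal.ofReal (rcost x y z) := by
  have h : ∀ u v : E, u - v ≠ 0 → (edist u v)⁻¹ = ENNReal.ofReal ‖u - v‖⁻¹ := by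
    intro u v h
    rw [edist_dist, dist_eq_norm, ENNReal.ofReal_inv_of_pos (norm_pos_iff.2 h)]
  rw [ecost, rcost, h _ _ h1, h _ _ h2, h _ _ h3, ENNReal.ofReal_add (by positivity) (by positivity),
    ENNReal.ofReal_add (by positivity) (by positivity)]

omit [InnerProductSpace ℝ E] in
theorem inv_edist_ge {x y : E} {D : ℝ} (hD : 0 < D) (h : ‖x - y‖ ≤ D) :
    ENNReal.ofReal D⁻¹ ≤ (edist x y)⁻¹ := by
  rw [ENNReal.ofReal_inv_of_pos hD, edist_dist, dist_eq_norm]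
  exact ENNReal.inv_le_inv.2 (ENNReal.ofReal_le_ofReal h)

/-- Centres of the blobs. -/
def ctr (e e' : E) : Fin 5 → E := ![0, e, -e, e', -e']

/-- Values of the potential at the centres. -/
noncomputable def lev : Fin 5 → ℝ := ![3 / 2, 1 / 2, 1 / 2, 1 / 2, 1 / 2]

/-- Upper bounds for the distances of the centres. -/
noncomputable def dmax : Fin 5 → Fin 5 → ℝ :=
  ![![0, 1, 1, 1, 1], ![1, 0, 2, 71 / 50, 71 / 50], ![1, 2, 0, 71 / 50, 71 / 50],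
    ![1, 71 / 50, 71 / 50, 0, 2], ![1, 71 / 50, 71 / 50, 2, 0]]

theorem ctr_dist {e e' : E} (he : ‖e‖ = 1) (he' : ‖e'‖ = 1) (h : ⟪e, e'⟫ = 0) (i j : Fin 5) :
    ‖ctr e e' i - ctr e e' j‖ ≤ dmax i j ∧ (i ≠ j → 1 ≤ ‖ctr e e' i - ctr e e' j‖) := by
  have h' : ⟪e', e⟫ = 0 := by rw [real_inner_comm]; exact h
  have key : ‖ctr e e' i - ctr e e' j‖ ^ 2 ≤ (dmax i j) ^ 2 ∧
      (i ≠ j → 1 ^ 2 ≤ ‖ctr e e' i - ctr e e' j‖ ^ 2) := by
    rw [norm_sub_sq_real]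
    fin_cases i <;> fin_cases j <;>
      simp [ctr, dmax, he, he', h, h'] <;> norm_num
  have h0 : 0 ≤ dmax i j := by
    fin_cases i <;> fin_cases j <;> simp [dmax] <;> norm_num
  exact ⟨abs_le_of_sq_le_sq' key.1 h0 |>.2,
    fun hij => abs_le_of_sq_le_sq' (key.2 hij) (norm_nonneg _) |>.2⟩

theorem table (i j k : Fin 5) (h : ¬ IsContact i j k) :
    lev i + lev j + lev k + 3 / 100 <
      (dmax i j + 1 / 50)⁻¹ + (dmax i k + 1 / 50)⁻¹ + (dmax j k + 1 / 50)⁻¹ := by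
  revert h
  fin_cases i <;> fin_cases j <;> fin_cases k <;>
    first
    | (intro h; exact absurd (by decide) h)
    | (intro _; simp [lev, dmax]; norm_num)

/-- The data of the construction. -/
structure Data (e e' : E) {Ω : Type*} (F : Fin 5 → Ω → E) (V : Fin 5 → Ω → ℝ) : Prop where
  near : ∀ i w, ‖F i w - ctr e e' i‖ ≤ 1 / 100
  level : ∀ i w, |V i w - lev i| ≤ 1 / 100
  inj : ∀ i, Function.Injective (F i)
  v0 : ∀ w, V 0 w = uA (F 0 w)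
  v1 : ∀ w, V 1 w = uB e (F 1 w)
  v2 : ∀ w, V 2 w = rcost (F 0 w) (F 1 w) (F 2 w) - uA (F 0 w) - uB e (F 1 w)
  v3 : ∀ w, V 3 w = uB e' (F 3 w)
  v4 : ∀ w, V 4 w = rcost (F 0 w) (F 3 w) (F 4 w) - uA (F 0 w) - uB e' (F 3 w)
  c1 : ∀ w, crit e (F 0 w, F 1 w, F 2 w) = 0
  c2 : ∀ w, crit e' (F 0 w, F 3 w, F 4 w) = 0

variable {e e' : E} {Ω : Type*} {F : Fin 5 → Ω → E} {V : Fin 5 → Ω → ℝ}

theorem Data.dist_le (D : Data e e' F V) (he : ‖e‖ = 1) (he' : ‖e'‖ = 1) (h : ⟪e, e'⟫ = 0)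
    (i j : Fin 5) (w w' : Ω) : ‖F i w - F j w'‖ ≤ dmax i j + 1 / 50 := by
  have h1 := D.near i w
  have h2 := D.near j w'
  have h3 := (ctr_dist he he' h i j).1
  have : F i w - F j w' = (F i w - ctr e e' i) + (ctr e e' i - ctr e e' j)
      - (F j w' - ctr e e' j) := by abel
  rw [this]
  have h4 := norm_sub_le ((F i w - ctr e e' i) + (ctr e e' i - ctr e e' j)) (F j w' - ctr e e' j)
  have h5 := norm_add_le (F i w - ctr e e' i) (ctr e e' i - ctr e e' j)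
  linarith

theorem Data.dist_ge (D : Data e e' F V) (he : ‖e‖ = 1) (he' : ‖e'‖ = 1) (h : ⟪e, e'⟫ = 0)
    {i j : Fin 5} (hij : i ≠ j) (w w' : Ω) : 9 / 10 ≤ ‖F i w - F j w'‖ := by
  have h1 := D.near i w
  have h2 := D.near j w'
  have h3 := (ctr_dist he he' h i j).2 hij
  have : ctr e e' i - ctr e e' j = (F i w - F j w') + (F j w' - ctr e e' j)
      - (F i w - ctr e e' i) := by abel
  rw [this] at h3
  have h4 := norm_sub_le ((F i w - F j w') + (F j w' - ctr e e' j)) (F i w - ctr e e' i)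
  have h5 := norm_add_le (F i w - F j w') (F j w' - ctr e e' j)
  linarith

theorem Data.sub_ne (D : Data e e' F V) (he : ‖e‖ = 1) (he' : ‖e'‖ = 1) (h : ⟪e, e'⟫ = 0)
    {i j : Fin 5} (hij : i ≠ j) (w w' : Ω) : F i w - F j w' ≠ 0 :=
  norm_pos_iff.1 (by linarith [D.dist_ge he he' h hij w w'])

theorem Data.disj (D : Data e e' F V) (he : ‖e‖ = 1) (he' : ‖e'‖ = 1) (h : ⟪e, e'⟫ = 0)
    (i j : Fin 5) (w w' : Ω) (hw : F i w = F j w') : i = j := by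
  by_contra hij
  exact D.sub_ne he he' h hij w w' (sub_eq_zero.2 hw)

theorem Data.bounds (D : Data e e' F V) (i : Fin 5) (w : Ω) : 0 ≤ V i w ∧ V i w ≤ 2 := by
  have h := abs_le.1 (D.level i w)
  have : 1 / 2 ≤ lev i ∧ lev i ≤ 3 / 2 := by
    fin_cases i <;> simp [lev] <;> norm_num
  constructor <;> linarith

theorem Data.sum_eq (D : Data e e' F V) (i j k : Fin 5) (w₁ w₂ w₃ : Ω) :
    ENNReal.ofReal (V i w₁) + ENNReal.ofReal (V j w₂) + ENNReal.ofReal (V k w₃) =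
      ENNReal.ofReal (V i w₁ + V j w₂ + V k w₃) := by
  rw [ENNReal.ofReal_add (add_nonneg (D.bounds _ _).1 (D.bounds _ _).1) (D.bounds _ _).1,
    ENNReal.ofReal_add (D.bounds _ _).1 (D.bounds _ _).1]

/-- The dual inequality with its equality case, for one ordered type. -/
def Dual (F : Fin 5 → Ω → E) (V : Fin 5 → Ω → ℝ) (i j k : Fin 5) : Prop :=
  ∀ w₁ w₂ w₃, ENNReal.ofReal (V i w₁) + ENNReal.ofReal (V j w₂) + ENNReal.ofReal (V k w₃) ≤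
      ecost (F i w₁) (F j w₂) (F k w₃) ∧
    (ENNReal.ofReal (V i w₁) + ENNReal.ofReal (V j w₂) + ENNReal.ofReal (V k w₃) =
      ecost (F i w₁) (F j w₂) (F k w₃) → w₁ = w₂ ∧ w₁ = w₃)

omit [InnerProductSpace ℝ E] in
theorem Dual.swap {i j k : Fin 5} (h : Dual F V i j k) : Dual F V j i k := by
  intro w₁ w₂ w₃
  have := h w₂ w₁ w₃
  rw [ecost_swap, add_comm (ENNReal.ofReal (V i w₂))] at this
  refine ⟨this.1, fun h => ?_⟩
  obtain ⟨rfl, rfl⟩ := this.2 h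
  exact ⟨rfl, rfl⟩

omit [InnerProductSpace ℝ E] in
theorem Dual.swap' {i j k : Fin 5} (h : Dual F V i j k) : Dual F V i k j := by
  intro w₁ w₂ w₃
  have := h w₁ w₃ w₂
  rw [ecost_swap', add_right_comm] at this
  refine ⟨this.1, fun h => ?_⟩
  obtain ⟨rfl, rfl⟩ := this.2 h
  exact ⟨rfl, rfl⟩

theorem Data.dual_aux (D : Data e e' F V) (he : ‖e‖ = 1) (he' : ‖e'‖ = 1) (h : ⟪e, e'⟫ = 0)
    (e₀ : E) {j k : Fin 5} (hj : 0 ≠ j) (hk : 0 ≠ k) (hjk : j ≠ k)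
    (v1 : ∀ w, V j w = uB e₀ (F j w))
    (v2 : ∀ w, V k w = rcost (F 0 w) (F j w) (F k w) - uA (F 0 w) - uB e₀ (F j w))
    (c1 : ∀ w, crit e₀ (F 0 w, F j w, F k w) = 0) : Dual F V 0 j k := by
  intro w₁ w₂ w₃
  have key := core_ineq e₀ (F 0 w₃) (F j w₃) (F k w₃) (F 0 w₁) (F j w₂) (c1 w₃)
    (D.dist_ge he he' h hj _ _) (D.dist_ge he he' h hk _ _) (D.dist_ge he he' h hjk _ _)
    (D.sub_ne he he' h hj _ _) (D.sub_ne he he' h hk _ _) (D.sub_ne he he' h hjk _ _)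
  rw [← v2, ← D.v0, ← v1] at key
  rw [D.sum_eq, ecost_eq (D.sub_ne he he' h hj _ _) (D.sub_ne he he' h hk _ _)
    (D.sub_ne he he' h hjk _ _)]
  have s1 := sq_nonneg ‖F 0 w₁ - F 0 w₃‖
  have s2 := sq_nonneg ‖F j w₂ - F j w₃‖
  refine ⟨ENNReal.ofReal_le_ofReal (by linarith), fun heq => ?_⟩
  have hn : 0 ≤ V 0 w₁ + V j w₂ + V k w₃ :=
    add_nonneg (add_nonneg (D.bounds _ _).1 (D.bounds _ _).1) (D.bounds _ _).1
  rw [ENNReal.ofReal_eq_ofReal_iff hn (by linarith)] at heq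
  have z1 : ‖F 0 w₁ - F 0 w₃‖ ^ 2 = 0 := by linarith
  have z2 : ‖F j w₂ - F j w₃‖ ^ 2 = 0 := by linarith
  have e1 : w₁ = w₃ := D.inj 0 (sub_eq_zero.1 (norm_eq_zero.1 (pow_eq_zero_iff two_ne_zero |>.1 z1)))
  have e2 : w₂ = w₃ := D.inj j (sub_eq_zero.1 (norm_eq_zero.1 (pow_eq_zero_iff two_ne_zero |>.1 z2)))
  exact ⟨e1.trans e2.symm, e1⟩

theorem Data.dual (D : Data e e' F V) (he : ‖e‖ = 1) (he' : ‖e'‖ = 1) (h : ⟪e, e'⟫ = 0)
    {i j k : Fin 5} (hc : IsContact i j k) : Dual F V i j k := by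
  have d1 : Dual F V 0 1 2 :=
    D.dual_aux he he' h e (by decide) (by decide) (by decide) D.v1 D.v2 D.c1
  have d2 : Dual F V 0 3 4 :=
    D.dual_aux he he' h e' (by decide) (by decide) (by decide) D.v3 D.v4 D.c2
  have : ∀ i j k : Fin 5, IsContact i j k → (i, j, k) ∈ ({(0, 1, 2), (0, 2, 1), (1, 0, 2), (2, 0, 1),
      (1, 2, 0), (2, 1, 0), (0, 3, 4), (0, 4, 3), (3, 0, 4), (4, 0, 3), (3, 4, 0), (4, 3, 0)} :
      Finset (Fin 5 × Fin 5 × Fin 5)) := by decide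
  have hm := this i j k hc
  simp only [Finset.mem_insert, Finset.mem_singleton, Prod.mk.injEq] at hm
  rcases hm with ⟨rfl, rfl, rfl⟩ | ⟨rfl, rfl, rfl⟩ | ⟨rfl, rfl, rfl⟩ | ⟨rfl, rfl, rfl⟩ |
    ⟨rfl, rfl, rfl⟩ | ⟨rfl, rfl, rfl⟩ | ⟨rfl, rfl, rfl⟩ | ⟨rfl, rfl, rfl⟩ | ⟨rfl, rfl, rfl⟩ |
    ⟨rfl, rfl, rfl⟩ | ⟨rfl, rfl, rfl⟩ | ⟨rfl, rfl, rfl⟩
  exacts [d1, d1.swap', d1.swap, d1.swap'.swap, d1.swap.swap', d1.swap.swap'.swap,
    d2, d2.swap', d2.swap, d2.swap'.swap, d2.swap.swap', d2.swap.swap'.swap]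

theorem Data.strict (D : Data e e' F V) (he : ‖e‖ = 1) (he' : ‖e'‖ = 1) (h : ⟪e, e'⟫ = 0)
    {i j k : Fin 5} (hc : ¬ IsContact i j k) (w₁ w₂ w₃ : Ω) :
    ENNReal.ofReal (V i w₁) + ENNReal.ofReal (V j w₂) + ENNReal.ofReal (V k w₃) <
      ecost (F i w₁) (F j w₂) (F k w₃) := by
  have hp : ∀ i j, 0 < dmax i j + 1 / 50 := by
    intro i j
    have := (norm_nonneg _).trans (ctr_dist he he' h i j).1
    linarith
  have t := table i j k hc
  have l1 := abs_le.1 (D.level i w₁)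
  have l2 := abs_le.1 (D.level j w₂)
  have l3 := abs_le.1 (D.level k w₃)
  have p1 := inv_pos.2 (hp i j)
  have p2 := inv_pos.2 (hp i k)
  have p3 := inv_pos.2 (hp j k)
  rw [D.sum_eq]
  calc ENNReal.ofReal (V i w₁ + V j w₂ + V k w₃)
      < ENNReal.ofReal ((dmax i j + 1 / 50)⁻¹ + (dmax i k + 1 / 50)⁻¹ + (dmax j k + 1 / 50)⁻¹) :=
        (ENNReal.ofReal_lt_ofReal_iff (by linarith)).2 (by linarith)
    _ = ENNReal.ofReal (dmax i j + 1 / 50)⁻¹ + ENNReal.ofReal (dmax i k + 1 / 50)⁻¹ +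
        ENNReal.ofReal (dmax j k + 1 / 50)⁻¹ := by
        rw [ENNReal.ofReal_add (by linarith) p3.le, ENNReal.ofReal_add p1.le p2.le]
    _ ≤ _ := add_le_add (add_le_add (inv_edist_ge (hp _ _) (D.dist_le he he' h _ _ _ _))
        (inv_edist_ge (hp _ _) (D.dist_le he he' h _ _ _ _)))
        (inv_edist_ge (hp _ _) (D.dist_le he he' h _ _ _ _))

theorem Data.H1 (D : Data e e' F V) (he : ‖e‖ = 1) (he' : ‖e'‖ = 1) (h : ⟪e, e'⟫ = 0)
    (i j k : Fin 5) (w₁ w₂ w₃ : Ω) :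
    ENNReal.ofReal (V i w₁) + ENNReal.ofReal (V j w₂) + ENNReal.ofReal (V k w₃) ≤
      ecost (F i w₁) (F j w₂) (F k w₃) := by
  by_cases hc : IsContact i j k
  · exact (D.dual he he' h hc w₁ w₂ w₃).1
  · exact (D.strict he he' h hc w₁ w₂ w₃).le

theorem Data.H3 (D : Data e e' F V) (he : ‖e‖ = 1) (he' : ‖e'‖ = 1) (h : ⟪e, e'⟫ = 0)
    (i j k : Fin 5) (w₁ w₂ w₃ : Ω)
    (heq : ENNReal.ofReal (V i w₁) + ENNReal.ofReal (V j w₂) + ENNReal.ofReal (V k w₃) =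
      ecost (F i w₁) (F j w₂) (F k w₃)) : w₁ = w₂ ∧ w₁ = w₃ ∧ IsContact i j k := by
  by_cases hc : IsContact i j k
  · exact ⟨((D.dual he he' h hc w₁ w₂ w₃).2 heq).1, ((D.dual he he' h hc w₁ w₂ w₃).2 heq).2, hc⟩
  · exact absurd heq (D.strict he he' h hc w₁ w₂ w₃).ne

theorem Data.H2 (D : Data e e' F V) (he : ‖e‖ = 1) (he' : ‖e'‖ = 1) (h : ⟪e, e'⟫ = 0) (w : Ω) :
    ecost (F 0 w) (F 1 w) (F 2 w) =
      ENNReal.ofReal (V 0 w) + ENNReal.ofReal (V 1 w) + ENNReal.ofReal (V 2 w) := by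
  rw [D.sum_eq, ecost_eq (D.sub_ne he he' h (by decide) _ _) (D.sub_ne he he' h (by decide) _ _)
    (D.sub_ne he he' h (by decide) _ _), D.v0, D.v1, D.v2]
  congr 1; ring

theorem Data.H2' (D : Data e e' F V) (he : ‖e‖ = 1) (he' : ‖e'‖ = 1) (h : ⟪e, e'⟫ = 0) (w : Ω) :
    ecost (F 0 w) (F 3 w) (F 4 w) =
      ENNReal.ofReal (V 0 w) + ENNReal.ofReal (V 3 w) + ENNReal.ofReal (V 4 w) := by
  rw [D.sum_eq, ecost_eq (D.sub_ne he he' h (by decide) _ _) (D.sub_ne he he' h (by decide) _ _)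
    (D.sub_ne he he' h (by decide) _ _), D.v0, D.v3, D.v4]
  congr 1; ring

end Vale.Agent.P121
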