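import Vale.Agent.P121.Geometry
import Vale.Agent.P121.Diffeo
import Vale.Agent.P121.Defs

/-!
Assembly of the counterexample.
-/

open Set Filter MeasureTheory Metric
open scoped Topology RealInnerProductSpace ENNReal ContDiff

namespace Vale.Agent.P121

variable {E : Type*} [NormedAddCommGroup E] [InnerProductSpace ℝ E] [FiniteDimensional ℝ E]

omit [FiniteDimensional ℝ E] in
theorem ev_family {e : E} (he : ‖e‖ = 1) {S R : E → E} (hS0 : S 0 = e) (hR0 : R 0 = -e)
    (hS : ContinuousAt S 0) (hR : ContinuousAt R 0) :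
    ∀ᶠ a in 𝓝 (0 : E), ‖S a - e‖ ≤ 1 / 100 ∧ ‖R a - -e‖ ≤ 1 / 100 ∧
      |uB e (S a) - 1 / 2| ≤ 1 / 100 ∧
      |rcost a (S a) (R a) - uA a - uB e (S a) - 1 / 2| ≤ 1 / 100 := by
  have h0 : e ≠ 0 := norm_ne_zero_iff.1 (by rw [he]; norm_num)
  have h2' : e - -e = (2 : ℝ) • e := by rw [two_smul]; abel
  have gen : ∀ g : E → ℝ, ContinuousAt g 0 → g 0 = 0 → ∀ᶠ a in 𝓝 (0 : E), g a ≤ 1 / 100 := by
    intro g hg hg0
    have : ∀ᶠ y in 𝓝 (g 0), y ≤ 1 / 100 := by
      rw [hg0]; exact eventually_le_nhds (by norm_num)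
    exact hg.eventually this
  have cB : ContinuousAt (fun a => uB e (S a)) 0 := by
    unfold uB; fun_prop
  have cA : ContinuousAt (fun a : E => uA a) 0 := by
    unfold uA; fun_prop
  have cC : ContinuousAt (fun a => rcost a (S a) (R a)) 0 := by
    unfold rcost
    refine ((ContinuousAt.inv₀ (by fun_prop) ?_).add (ContinuousAt.inv₀ (by fun_prop) ?_)).add
      (ContinuousAt.inv₀ (by fun_prop) ?_)
    · simp [hS0, he]
    · simp [hR0, he]
    · simp only [hS0, hR0, h2', norm_smul, he]; norm_num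
  refine (gen _ (by fun_prop) (by simp [hS0])).and ((gen _ (by fun_prop) (by simp [hR0])).and
    ((gen _ (by fun_prop) ?_).and (gen _ (by fun_prop) ?_)))
  · simp [hS0, uB]
  · simp only [hS0, hR0, uB, uA, rcost, h2', norm_smul, he, zero_sub, norm_neg, sub_self,
      norm_zero, inner_zero_right]
    norm_num

variable [MeasurableSpace E] [BorelSpace E]

theorem main_general (vol : Measure E) [vol.IsAddHaarMeasure] {e e' : E} (he : ‖e‖ = 1)
    (he' : ‖e'‖ = 1) (h : ⟪e, e'⟫ = 0) :
    ∃ ρ : E → ℝ, ContDiff ℝ ∞ ρ ∧ HasCompactSupport ρ ∧ (∀ x, 0 ≤ ρ x) ∧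
      ∃ μ : Measure E, μ = vol.withDensity (fun x => ENNReal.ofReal (ρ x)) ∧
      IsProbabilityMeasure μ ∧ ∃ γ : Measure (E × E × E), IsProbabilityMeasure γ ∧
      γ.map (fun p => p.1) = μ ∧ γ.map (fun p => p.2.1) = μ ∧ γ.map (fun p => p.2.2) = μ ∧
      ∫⁻ p, ecost p.1 p.2.1 p.2.2 ∂γ < ⊤ ∧
      ∀ T₂ T₃ : E → E, Measurable T₂ → Measurable T₃ → μ.map T₂ = μ → μ.map T₃ = μ →
        ∫⁻ p, ecost p.1 p.2.1 p.2.2 ∂γ < ∫⁻ x, ecost x (T₂ x) (T₃ x) ∂μ := by
  obtain ⟨S, R, hS0, hR0, hS, hR, iS, iR, cr⟩ := exists_implicit he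
  obtain ⟨S', R', hS0', hR0', hS', hR', iS', iR', cr'⟩ := exists_implicit he'
  set G : Fin 5 → E → E := ![id, S, R, S', R'] with hG
  have hGood : ∀ i, ∃ r₀ > 0, ∀ r ≤ r₀, Good vol (G i) r := by
    intro i
    fin_cases i
    · exact exists_good vol (S := id) contDiffAt_id
        (by rw [fderiv_id]; exact ⟨ContinuousLinearEquiv.refl ℝ E, rfl⟩)
    · exact exists_good vol hS iS
    · exact exists_good vol hR iR
    · exact exists_good vol hS' iS'
    · exact exists_good vol hR' iR'
  choose r₀ hr₀ hGood using hGood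
  have ev0 : ∀ᶠ a in 𝓝 (0 : E), ‖a‖ ≤ 1 / 100 ∧ |uA a - 3 / 2| ≤ 1 / 100 := by
    filter_upwards [closedBall_mem_nhds (0 : E) (by norm_num : (0 : ℝ) < 1 / 100)] with a ha
    have ha' : ‖a‖ ≤ 1 / 100 := by simpa using ha
    refine ⟨ha', ?_⟩
    have := norm_nonneg a
    rw [uA, abs_le]
    constructor <;> nlinarith
  have ev := ((ev0.and (ev_family he hS0 hR0 hS.continuousAt hR.continuousAt)).and
    (ev_family he' hS0' hR0' hS'.continuousAt hR'.continuousAt)).and (cr.and cr')
  obtain ⟨r₁, hr₁, H⟩ := Metric.eventually_nhds_iff_ball.1 ev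
  obtain ⟨r, hr, hrr₁, hrr₀⟩ : ∃ r > 0, r ≤ r₁ ∧ ∀ i, r ≤ r₀ i := by
    refine ⟨min r₁ (Finset.univ.inf' Finset.univ_nonempty r₀), lt_min hr₁ ?_, min_le_left _ _,
      fun i => (min_le_right _ _).trans (Finset.inf'_le _ (Finset.mem_univ i))⟩
    exact (Finset.lt_inf'_iff _).2 fun i _ => hr₀ i
  have good : ∀ i, Good vol (G i) r := fun i => hGood i r (hrr₀ i)
  set F : Fin 5 → ball (0 : E) r → E := fun i w => G i w with hF
  set W : Fin 5 → E → ℝ := ![uA, fun a => uB e (S a),
    fun a => rcost a (S a) (R a) - uA a - uB e (S a), fun a => uB e' (S' a),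
    fun a => rcost a (S' a) (R' a) - uA a - uB e' (S' a)] with hW
  set V : Fin 5 → ball (0 : E) r → ℝ := fun i w => W i w with hV
  have hFi : ∀ i, Function.Injective (F i) := fun i w w' hw =>
    Subtype.ext ((good i).inj w.2 w'.2 hw)
  have D : Data e e' F V := by
    refine ⟨?_, ?_, hFi, fun _ => rfl, fun _ => rfl, fun _ => rfl, fun _ => rfl, fun _ => rfl,
      fun w => (H w (ball_subset_ball hrr₁ w.2)).2.1, fun w => (H w (ball_subset_ball hrr₁ w.2)).2.2⟩
    · intro i w
      obtain ⟨⟨⟨a0, a1⟩, a2⟩, -⟩ := H w (ball_subset_ball hrr₁ w.2)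
      fin_cases i
      · simpa [hF, hG, ctr] using a0.1
      · exact a1.1
      · exact a1.2.1
      · exact a2.1
      · exact a2.2.1
    · intro i w
      obtain ⟨⟨⟨a0, a1⟩, a2⟩, -⟩ := H w (ball_subset_ball hrr₁ w.2)
      fin_cases i
      · exact a0.2
      · exact a1.2.2.1
      · exact a1.2.2.2
      · exact a2.2.2.1
      · exact a2.2.2.2
  have hFm : ∀ i, MeasurableEmbedding (F i) := fun i =>
    ContinuousOn.measurableEmbedding measurableSet_ball (good i).cont (good i).inj
  have hVm : ∀ i, Measurable (V i) := by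
    have m := fun i => (hFm i).measurable
    have mA : Measurable (uA : E → ℝ) := by unfold uA; fun_prop
    have mB : ∀ e : E, Measurable (uB e) := by
      intro e
      apply Continuous.measurable
      unfold uB; fun_prop
    have mC : ∀ i j k, Measurable fun w => rcost (F i w) (F j w) (F k w) := by
      intro i j k
      have := m i
      have := m j
      have := m k
      unfold rcost; fun_prop
    intro i
    fin_cases i
    · exact mA.comp (m 0)
    · exact (mB e).comp (m 1)
    · exact ((mC 0 1 2).sub (mA.comp (m 0))).sub ((mB e).comp (m 1))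
    · exact (mB e').comp (m 3)
    · exact ((mC 0 3 4).sub (mA.comp (m 0))).sub ((mB e').comp (m 3))
  let b : ContDiffBump (0 : E) := ⟨r / 4, r / 2, by positivity, by linarith⟩
  have hsupp : tsupport (b.normed vol) ⊆ ball 0 r := by
    rw [b.tsupport_normed_eq]
    exact closedBall_subset_ball (show r / 2 < r by linarith)
  set ν := vol.withDensity (fun x => ENNReal.ofReal (b.normed vol x)) with hν
  set m : Measure (ball (0 : E) r) := ν.comap Subtype.val with hm
  have hmap : ∀ N : Set E, ∀ i, m (F i ⁻¹' N) = ν (ball 0 r ∩ G i ⁻¹' N) := by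
    intro N i
    rw [hm, (MeasurableEmbedding.subtype_coe measurableSet_ball).comap_apply]
    congr 1
    ext a
    simp [hF, and_comm]
  have hprob : IsProbabilityMeasure m := by
    constructor
    have h1 := hmap univ 0
    rw [preimage_univ, preimage_univ, inter_univ] at h1
    rw [h1, hν, withDensity_apply _ measurableSet_ball, setLIntegral_eq_of_support_subset,
      ← ofReal_integral_eq_lintegral_ofReal b.integrable_normed
        (Eventually.of_forall b.nonneg_normed), b.integral_normed]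
    · simp
    · intro x hx
      apply hsupp
      apply subset_tsupport
      intro h0
      exact hx (by simp [h0])
  have hdens := fun i => (good i).dens (b.normed vol) b.contDiff_normed b.nonneg_normed
    b.hasCompactSupport_normed hsupp
  choose ρ ρs ρc ρ0 ρm using hdens
  have hpush : ∀ i, m.map (F i) = vol.withDensity (fun x => ENNReal.ofReal (ρ i x)) := by
    intro i
    ext N hN
    rw [Measure.map_apply (hFm i).measurable hN, hmap, ρm i N hN]
  have hcm : Measurable fun p : E × E × E => ecost p.1 p.2.1 p.2.2 := by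
    unfold ecost; fun_prop
  have main := abstract_main m hFm (D.disj he he' h) ecost hcm
    (fun x y z => by rw [ecost_swap, ecost_swap']) (fun i w => ENNReal.ofReal (V i w))
    (fun i => (hVm i).ennreal_ofReal)
    (fun i w => by
      have := ENNReal.ofReal_le_ofReal (D.bounds i w).2
      simpa using this)
    (D.H1 he he' h) (D.H2 he he' h) (D.H2' he he' h) (D.H3 he he' h)
  have hFm' := fun i => (hFm i).measurable
  refine ⟨fun x => 6⁻¹ * (ρ 0 x + ρ 0 x + ρ 1 x + ρ 2 x + ρ 3 x + ρ 4 x), ?_, ?_, ?_, mix m F, ?_,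
    mix_prob m F hFm', plan m F, plan_prob m F hFm', plan_fst m F hFm', plan_snd m F hFm',
    plan_thd m F hFm', main.1, main.2⟩
  · exact contDiff_const.mul ((((((ρs 0).add (ρs 0)).add (ρs 1)).add (ρs 2)).add (ρs 3)).add (ρs 4))
  · exact HasCompactSupport.mul_left
      ((((((ρc 0).add (ρc 0)).add (ρc 1)).add (ρc 2)).add (ρc 3)).add (ρc 4))
  · intro x
    have := fun i => ρ0 i x
    have := this 0; have := ρ0 1 x; have := ρ0 2 x; have := ρ0 3 x; have := ρ0 4 x
    positivity
  · have mm : ∀ i, Measurable fun x => ENNReal.ofReal (ρ i x) :=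
      fun i => (ρs i).continuous.measurable.ennreal_ofReal
    simp only [mix, hpush]
    rw [← withDensity_add_right _ (mm 0), ← withDensity_add_right _ (mm 1),
      ← withDensity_add_right _ (mm 2), ← withDensity_add_right _ (mm 3),
      ← withDensity_add_right _ (mm 4), ← withDensity_smul' _ _ (by simp)]
    congr 1
    funext x
    have p0 := ρ0 0 x
    have p1 := ρ0 1 x
    have p2 := ρ0 2 x
    have p3 := ρ0 3 x
    have p4 := ρ0 4 x
    simp only [Pi.smul_apply, Pi.add_apply, smul_eq_mul]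
    rw [ENNReal.ofReal_mul (by norm_num), ENNReal.ofReal_add (by positivity) p4,
      ENNReal.ofReal_add (by positivity) p3, ENNReal.ofReal_add (by positivity) p2,
      ENNReal.ofReal_add (by positivity) p1, ENNReal.ofReal_add p0 p0,
      ENNReal.ofReal_inv_of_pos (by norm_num)]
    simp

theorem main_euclid (d : ℕ) (hd : 2 ≤ d) :
    ∃ ρ : EuclideanSpace ℝ (Fin d) → ℝ, ContDiff ℝ ∞ ρ ∧ HasCompactSupport ρ ∧ (∀ x, 0 ≤ ρ x) ∧
      ∃ μ : Measure (EuclideanSpace ℝ (Fin d)),
        μ = volume.withDensity (fun x => ENNReal.ofReal (ρ x)) ∧ IsProbabilityMeasure μ ∧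
        kantorovich μ < ⊤ ∧
        ∀ T₂ T₃ : EuclideanSpace ℝ (Fin d) → EuclideanSpace ℝ (Fin d),
          Measurable T₂ → Measurable T₃ → μ.map T₂ = μ → μ.map T₃ = μ →
          kantorovich μ < ∫⁻ x, coulomb x (T₂ x) (T₃ x) ∂μ := by
  obtain ⟨ρ, h1, h2, h3, μ, h4, h5, γ, g1, g2, g3, g4, g5, g6⟩ :=
    main_general (E := EuclideanSpace ℝ (Fin d)) volume
      (e := EuclideanSpace.single ⟨0, by omega⟩ 1) (e' := EuclideanSpace.single ⟨1, by omega⟩ 1)
      (by simp) (by simp) (by simp [EuclideanSpace.inner_single_left])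
  have hk : kantorovich μ ≤ ∫⁻ p, ecost p.1 p.2.1 p.2.2 ∂γ :=
    iInf₂_le γ (show γ ∈ couplings μ from ⟨g1, g2, g3, g4⟩)
  exact ⟨ρ, h1, h2, h3, μ, h4, h5, hk.trans_lt g5,
    fun T₂ T₃ a b c d => hk.trans_lt (g6 T₂ T₃ a b c d)⟩

end Vale.Agent.P121
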